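import Mathlib
import Vale.Agent.P287.H468.Dich
import Vale.Agent.P287.H932.Refl
import Vale.Agent.P287.H149.Refl2

set_option autoImplicit false

/-!
Smooth cubic fourfolds with an anti-symplectic involution or an Eckardt point: either rational, or
the Eckardt point is unique, its reflection is the only involution, and all planes pass through it.
-/

namespace Vale.Agent.Results.P287.AntiSymplecticDichotomy

open MvPolynomial Matrix P287H468

theorem result (F : MvPolynomial (Fin 6) ℂ) (hF : F.IsHomogeneous 3) (hsm : SmoothForm F)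
    (h : (∃ A : Matrix (Fin 6) (Fin 6) ℂ, A * A = 1 ∧ A.det = -1 ∧
        ∀ x, eval (A *ᵥ x) F = eval x F) ∨ ∃ p, EckardtPoint F p) :
    RationalForm F ∨ ∃ (p : Fin 6 → ℂ) (A : Matrix (Fin 6) (Fin 6) ℂ),
      EckardtPoint F p ∧ A * A = 1 ∧ (A - 1).rank = 1 ∧ A *ᵥ p = -p ∧
      (∀ x, eval (A *ᵥ x) F = eval x F) ∧
      (∀ q, EckardtPoint F q → ∃ r : ℂ, q = r • p) ∧
      (∀ B : Matrix (Fin 6) (Fin 6) ℂ, B * B = 1 → (∀ x, eval (B *ᵥ x) F = eval x F) →
        B = 1 ∨ B = A) ∧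
      (∀ W : Submodule ℂ (Fin 6 → ℂ), Module.finrank ℂ W = 3 → (∀ x ∈ W, eval x F = 0) →
        p ∈ W) :=
  dichotomy hF (fun hF hsm _ hA hr hinv _ hp hAp => eckardt_of_refl hF hsm hA hr hinv hp hAp)
    (fun hF hsm _ hp => refl_of_eckardt hF hsm hp)
    (fun hF hsm _ _ hA hr hinv hA' hr' hinv' _ hp hAp hAp' =>
      refl_unique hF hsm hA hA' hr hr' hinv hinv' hp hAp hAp') hsm h

end Vale.Agent.Results.P287.AntiSymplecticDichotomy
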